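import Mathlib

/-!
Subspaces of function lattices of finite concavity whose dual has finite cotype
do not contain the `ℓ_1^k` uniformly: an explicit bound on `k`.
-/

open Finset

namespace Vale.Agent.Results.P111.LatticeSubspace

/-- A solid function lattice on a measurable space: a linear space of measurable real functions,
closed under passing to measurable functions of smaller absolute value, with a monotone seminorm.
This covers `L_p(μ)`, Orlicz and mixed norm spaces (trivial seminorm kernel is not required). -/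
structure SolidLattice (S : Type*) [MeasurableSpace S] where
  carrier : Submodule ℝ (S → ℝ)
  measurable_of_mem : ∀ g ∈ carrier, Measurable g
  solid : ∀ g ∈ carrier, ∀ g' : S → ℝ, Measurable g' → (∀ x, |g' x| ≤ |g x|) → g' ∈ carrier
  nrm : (S → ℝ) → ℝ
  nrm_nonneg : ∀ g ∈ carrier, 0 ≤ nrm g
  nrm_smul : ∀ (c : ℝ), ∀ g ∈ carrier, nrm (c • g) = |c| * nrm g
  nrm_add_le : ∀ g ∈ carrier, ∀ g' ∈ carrier, nrm (g + g') ≤ nrm g + nrm g'
  nrm_mono : ∀ g ∈ carrier, ∀ g' ∈ carrier, (∀ x, |g' x| ≤ |g x|) → nrm g' ≤ nrm g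

/-- The sign attached to a Boolean value. -/
noncomputable def sgn (b : Bool) : ℝ := if b then 1 else -1

/-- `2s`-concavity with constant `M`. -/
def SolidLattice.Concave {S : Type*} [MeasurableSpace S] (L : SolidLattice S) (s : ℕ) (M : ℝ) :
    Prop :=
  ∀ (ι : Type) [Fintype ι] (g : ι → S → ℝ), (∀ j, g j ∈ L.carrier) →
    ∑ j, L.nrm (g j) ^ (2 * s) ≤
      M ^ (2 * s) *
        L.nrm (fun x => (∑ j, (g j x) ^ (2 * s)) ^ ((1 : ℝ) / (2 * (s : ℝ)))) ^ (2 * s)

/-- The dual of `X` has Rademacher cotype `r` with constant `C`. -/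
def DualCotype (X : Type*) [NormedAddCommGroup X] [NormedSpace ℝ X] (r C : ℝ) : Prop :=
  ∀ (n : ℕ) (y : Fin n → StrongDual ℝ X),
    (∑ i, ‖y i‖ ^ r) ^ (1 / r) ≤
      C * Real.sqrt ((1 / (2 : ℝ) ^ n) * ∑ ε : Fin n → Bool, ‖∑ i, sgn (ε i) • y i‖ ^ 2)

lemma sgn_abs (b : Bool) : |sgn b| = 1 := by
  cases b <;> simp [sgn]

lemma sum_exp_eq {k : ℕ} (a : Fin k → ℝ) (t : ℝ) :
    ∑ ε : Fin k → Bool, Real.exp (t * ∑ i, sgn (ε i) * a i) =
      ∏ i, (Real.exp (t * a i) + Real.exp (-(t * a i))) := by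
  have h := Finset.prod_univ_sum (fun _ : Fin k => (Finset.univ : Finset Bool))
    (fun i b => Real.exp (t * (sgn b * a i)))
  rw [Fintype.piFinset_univ] at h
  have h1 : ∀ ε : Fin k → Bool, Real.exp (t * ∑ i, sgn (ε i) * a i) =
      ∏ i, Real.exp (t * (sgn (ε i) * a i)) := by
    intro ε
    rw [← Real.exp_sum, Finset.mul_sum]
  simp only [h1]
  rw [← h]
  refine Finset.prod_congr rfl fun i _ => ?_
  rw [Fintype.sum_bool]
  simp [sgn]

lemma sum_exp_le {k : ℕ} (a : Fin k → ℝ) (t : ℝ) :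
    ∑ ε : Fin k → Bool, Real.exp (t * ∑ i, sgn (ε i) * a i) ≤
      2 ^ k * Real.exp (t ^ 2 * (∑ i, a i ^ 2) / 2) := by
  rw [sum_exp_eq]
  have h1 : ∀ i, Real.exp (t * a i) + Real.exp (-(t * a i)) ≤
      2 * Real.exp ((t * a i) ^ 2 / 2) := by
    intro i
    have := Real.cosh_le_exp_half_sq (t * a i)
    rw [Real.cosh_eq] at this
    linarith
  calc ∏ i, (Real.exp (t * a i) + Real.exp (-(t * a i)))
      ≤ ∏ i, (2 * Real.exp ((t * a i) ^ 2 / 2)) :=
        Finset.prod_le_prod (fun i _ => by positivity) (fun i _ => h1 i)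
    _ = 2 ^ k * Real.exp (t ^ 2 * (∑ i, a i ^ 2) / 2) := by
        rw [Finset.prod_mul_distrib, ← Real.exp_sum]
        simp only [Finset.prod_const, Finset.card_univ, Fintype.card_fin]
        congr 2
        rw [Finset.mul_sum, Finset.sum_div]
        refine Finset.sum_congr rfl fun i _ => ?_
        ring

lemma pow_even_le_exp (s : ℕ) (y : ℝ) :
    y ^ (2 * s) ≤ (2 * s).factorial * (Real.exp y + Real.exp (-y)) := by
  have hf : (0 : ℝ) < (2 * s).factorial := by positivity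
  have h := Real.pow_div_factorial_le_exp |y| (abs_nonneg y) (2 * s)
  have h2 : y ^ (2 * s) = |y| ^ (2 * s) := by
    rw [pow_mul, pow_mul, sq_abs]
  have h3 : Real.exp |y| ≤ Real.exp y + Real.exp (-y) := by
    rcases abs_cases y with ⟨h, _⟩ | ⟨h, _⟩ <;> rw [h]
    · have := Real.exp_pos (-y); linarith
    · have := Real.exp_pos y; linarith
  rw [h2]
  rw [div_le_iff₀ hf] at h
  nlinarith

lemma exp_half_le_two : Real.exp (1 / 2) ≤ 2 := by
  have h : Real.exp (1 / 2) ^ 2 = Real.exp 1 := by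
    rw [← Real.exp_nat_mul]; norm_num
  have h1 : Real.exp 1 < 3 := by
    have := Real.exp_one_lt_d9; norm_num at this ⊢; linarith
  have h2 := Real.exp_pos (1 / 2)
  nlinarith

lemma four_fact_le {s : ℕ} (hs : 1 ≤ s) :
    4 * ((2 * s).factorial : ℝ) ≤ (4 * (s : ℝ)) ^ (2 * s) := by
  have h1 : ((2 * s).factorial : ℝ) ≤ (2 * (s : ℝ)) ^ (2 * s) := by
    have := Nat.factorial_le_pow (2 * s)
    exact_mod_cast this
  have h2 : (4 : ℝ) ≤ 2 ^ (2 * s) := by
    calc (4 : ℝ) = 2 ^ 2 := by norm_num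
      _ ≤ 2 ^ (2 * s) := pow_le_pow_right₀ (by norm_num) (by omega)
  have h3 : (4 * (s : ℝ)) ^ (2 * s) = 2 ^ (2 * s) * (2 * (s : ℝ)) ^ (2 * s) := by
    rw [← mul_pow]; congr 1; ring
  rw [h3]
  have h4 : (0 : ℝ) ≤ ((2 * s).factorial : ℝ) := by positivity
  have h5 : (0 : ℝ) ≤ (2 : ℝ) ^ (2 * s) := by positivity
  calc 4 * ((2 * s).factorial : ℝ) ≤ 2 ^ (2 * s) * ((2 * s).factorial : ℝ) :=
        mul_le_mul_of_nonneg_right h2 h4
    _ ≤ 2 ^ (2 * s) * (2 * (s : ℝ)) ^ (2 * s) := mul_le_mul_of_nonneg_left h1 h5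

/-- Khintchine's inequality with explicit constant, in a discrete form. -/
lemma khintchine {k s : ℕ} (hs : 1 ≤ s) (a : Fin k → ℝ) :
    ∑ ε : Fin k → Bool, (∑ i, sgn (ε i) * a i) ^ (2 * s) ≤
      2 ^ k * (4 * (s : ℝ)) ^ (2 * s) * (∑ i, a i ^ 2) ^ s := by
  set A := ∑ i, a i ^ 2 with hA
  have hA0 : 0 ≤ A := Finset.sum_nonneg fun i _ => sq_nonneg _
  have hs0 : 2 * s ≠ 0 := by omega
  rcases hA0.eq_or_lt with hA1 | hA1
  · have hz : ∀ i, a i = 0 := by
      intro i
      have : a i ^ 2 = 0 := by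
        have h := (Finset.sum_eq_zero_iff_of_nonneg (fun i _ => sq_nonneg (a i))).1 (by rw [← hA, ← hA1])
        exact h i (Finset.mem_univ i)
      exact pow_eq_zero_iff (two_ne_zero) |>.1 this
    simp [hz, hs0, ← hA1, zero_pow (show s ≠ 0 by omega)]
  · set t := 1 / Real.sqrt A with ht
    have hsq : 0 < Real.sqrt A := Real.sqrt_pos.2 hA1
    have ht0 : 0 < t := by positivity
    have ht2 : t ^ 2 * A = 1 := by
      rw [ht, div_pow, Real.sq_sqrt hA0]; field_simp
    have hpt : t ^ (2 * s) * A ^ s = 1 := by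
      rw [pow_mul, ← mul_pow, ht2, one_pow]
    have key : ∀ ε : Fin k → Bool, (t * ∑ i, sgn (ε i) * a i) ^ (2 * s) ≤
        (2 * s).factorial * (Real.exp (t * ∑ i, sgn (ε i) * a i) +
          Real.exp ((-t) * ∑ i, sgn (ε i) * a i)) := by
      intro ε
      have := pow_even_le_exp s (t * ∑ i, sgn (ε i) * a i)
      rwa [← neg_mul] at this
    have e1 := sum_exp_le a t
    have e2 := sum_exp_le a (-t)
    have e3 : t ^ 2 * A / 2 = 1 / 2 := by rw [ht2]
    have e4 : (-t) ^ 2 * A / 2 = 1 / 2 := by rw [neg_sq, ht2]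
    rw [← hA, e3] at e1
    rw [← hA, e4] at e2
    have hsum : ∑ ε : Fin k → Bool, (t * ∑ i, sgn (ε i) * a i) ^ (2 * s) ≤
        (2 * s).factorial * (2 * (2 ^ k * 2)) := by
      calc ∑ ε : Fin k → Bool, (t * ∑ i, sgn (ε i) * a i) ^ (2 * s)
          ≤ ∑ ε : Fin k → Bool, ((2 * s).factorial * (Real.exp (t * ∑ i, sgn (ε i) * a i) +
              Real.exp ((-t) * ∑ i, sgn (ε i) * a i))) :=
            Finset.sum_le_sum fun ε _ => key ε
        _ = (2 * s).factorial * (∑ ε : Fin k → Bool, Real.exp (t * ∑ i, sgn (ε i) * a i) +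
              ∑ ε : Fin k → Bool, Real.exp ((-t) * ∑ i, sgn (ε i) * a i)) := by
            rw [← Finset.mul_sum, Finset.sum_add_distrib]
        _ ≤ _ := by
            have hh := exp_half_le_two
            have h2k : (0 : ℝ) < 2 ^ k := by positivity
            refine mul_le_mul_of_nonneg_left ?_ (by positivity)
            nlinarith
    have hmul : ∑ ε : Fin k → Bool, (t * ∑ i, sgn (ε i) * a i) ^ (2 * s) =
        t ^ (2 * s) * ∑ ε : Fin k → Bool, (∑ i, sgn (ε i) * a i) ^ (2 * s) := by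
      rw [Finset.mul_sum]
      exact Finset.sum_congr rfl fun ε _ => mul_pow _ _ _
    rw [hmul] at hsum
    have hAs : 0 < A ^ s := by positivity
    have h6 : ∑ ε : Fin k → Bool, (∑ i, sgn (ε i) * a i) ^ (2 * s) =
        (t ^ (2 * s) * ∑ ε : Fin k → Bool, (∑ i, sgn (ε i) * a i) ^ (2 * s)) * A ^ s := by
      rw [mul_right_comm, hpt, one_mul]
    rw [h6]
    have h7 := four_fact_le hs
    have h2k : (0 : ℝ) < 2 ^ k := by positivity
    calc _ ≤ ((2 * s).factorial * (2 * (2 ^ k * 2))) * A ^ s :=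
          mul_le_mul_of_nonneg_right hsum hAs.le
      _ = 2 ^ k * (4 * ((2 * s).factorial : ℝ)) * A ^ s := by ring
      _ ≤ 2 ^ k * (4 * (s : ℝ)) ^ (2 * s) * A ^ s := by
          apply mul_le_mul_of_nonneg_right _ hAs.le
          exact mul_le_mul_of_nonneg_left h7 h2k.le


section Lattice

variable {S : Type*} [MeasurableSpace S] (L : SolidLattice S)

lemma SolidLattice.abs_mem {g : S → ℝ} (hg : g ∈ L.carrier) : (fun x => |g x|) ∈ L.carrier :=
  L.solid g hg _ (L.measurable_of_mem g hg).abs (fun x => by simp)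

lemma SolidLattice.fun_sum_mem {ι : Type*} (t : Finset ι) (φ : ι → S → ℝ)
    (hφ : ∀ i ∈ t, φ i ∈ L.carrier) : (fun z => ∑ i ∈ t, φ i z) ∈ L.carrier := by
  have h : (fun z => ∑ i ∈ t, φ i z) = ∑ i ∈ t, φ i := by
    funext z; simp [Finset.sum_apply]
  rw [h]
  exact Submodule.sum_mem _ hφ

lemma SolidLattice.smul_fun_mem {g : S → ℝ} (hg : g ∈ L.carrier) (c : ℝ) :
    (fun z => c * g z) ∈ L.carrier := by
  have h : (fun z => c * g z) = c • g := by
    funext z; simp
  rw [h]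
  exact Submodule.smul_mem _ _ hg

lemma SolidLattice.nrm_zero : L.nrm 0 = 0 := by
  have h := L.nrm_smul 0 0 (Submodule.zero_mem _)
  simpa using h

lemma SolidLattice.pos_mem {g : S → ℝ} (hg : g ∈ L.carrier) :
    (fun x => max (g x) 0) ∈ L.carrier := by
  refine L.solid g hg _ ((L.measurable_of_mem g hg).max measurable_const) (fun x => ?_)
  rcases le_total (g x) 0 with h | h
  · simp [max_eq_right h]
  · simp [max_eq_left h]

/-- A nonnegative functional norming `G`, as a function on all functions, additive and homogeneous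
on the carrier and dominated by the norm of the positive part. -/
lemma exists_functional {G : S → ℝ} (hG : G ∈ L.carrier) (hG0 : ∀ x, 0 ≤ G x) (hpos : 0 < L.nrm G) :
    ∃ H : (S → ℝ) → ℝ,
      (∀ g ∈ L.carrier, ∀ g' ∈ L.carrier, H (g + g') = H g + H g') ∧
      (∀ c : ℝ, ∀ g ∈ L.carrier, H (c • g) = c * H g) ∧
      (∀ g ∈ L.carrier, H g ≤ L.nrm (fun x => max (g x) 0)) ∧
      H G = L.nrm G := by
  classical
  let E := L.carrier
  let N : E → ℝ := fun g => L.nrm (fun x => max ((g : S → ℝ) x) 0)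
  have N_hom : ∀ c : ℝ, 0 < c → ∀ g : E, N (c • g) = c * N g := by
    intro c hc g
    have hm := L.pos_mem g.2
    have h1 : (fun x => max (((c • g : E) : S → ℝ) x) 0) = c • (fun x => max ((g : S → ℝ) x) 0) := by
      funext x
      simp only [Submodule.coe_smul, Pi.smul_apply, smul_eq_mul]
      rcases le_total ((g : S → ℝ) x) 0 with h | h
      · rw [max_eq_right h, max_eq_right (mul_nonpos_of_nonneg_of_nonpos hc.le h)]; simp
      · rw [max_eq_left h, max_eq_left (mul_nonneg hc.le h)]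
    show L.nrm _ = c * L.nrm _
    rw [h1, L.nrm_smul c _ hm, abs_of_pos hc]
  have N_add : ∀ g g' : E, N (g + g') ≤ N g + N g' := by
    intro g g'
    have hm := L.pos_mem g.2
    have hm' := L.pos_mem g'.2
    have hm2 := L.pos_mem (g + g').2
    have hs := Submodule.add_mem _ hm hm'
    refine le_trans (L.nrm_mono _ hs _ hm2 (fun x => ?_)) (L.nrm_add_le _ hm _ hm')
    simp only [Submodule.coe_add, Pi.add_apply]
    have h1 := le_max_left ((g : S → ℝ) x) 0
    have h2 := le_max_right ((g : S → ℝ) x) 0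
    have h3 := le_max_left ((g' : S → ℝ) x) 0
    have h4 := le_max_right ((g' : S → ℝ) x) 0
    rw [abs_of_nonneg (le_max_right _ _), abs_of_nonneg (add_nonneg h2 h4)]
    exact max_le (add_le_add h1 h3) (add_nonneg h2 h4)
  have hne : (⟨G, hG⟩ : E) ≠ 0 := by
    intro h0
    have : G = 0 := congrArg Subtype.val h0
    rw [this, L.nrm_zero] at hpos
    exact lt_irrefl _ hpos
  let f : E →ₗ.[ℝ] ℝ := LinearPMap.mkSpanSingleton (⟨G, hG⟩ : E) (L.nrm G) hne
  have hf : ∀ x : f.domain, f x ≤ N x := by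
    rintro ⟨x, hx⟩
    obtain ⟨c, rfl⟩ := Submodule.mem_span_singleton.1 hx
    have h1 : f ⟨c • (⟨G, hG⟩ : E), hx⟩ = c * L.nrm G := by
      calc f ⟨c • (⟨G, hG⟩ : E), hx⟩ = (RingHom.id ℝ c) • L.nrm G :=
            LinearPMap.mkSpanSingleton'_apply _ _ _ c hx
        _ = c * L.nrm G := by simp
    rw [h1]
    rcases le_or_gt c 0 with hc | hc
    · have h2 : 0 ≤ N (c • (⟨G, hG⟩ : E)) := L.nrm_nonneg _ (L.pos_mem (c • (⟨G, hG⟩ : E)).2)
      have h3 : c * L.nrm G ≤ 0 := mul_nonpos_of_nonpos_of_nonneg hc hpos.le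
      linarith
    · have h2 : N (c • (⟨G, hG⟩ : E)) = c * N ⟨G, hG⟩ := N_hom c hc _
      have h3 : N ⟨G, hG⟩ = L.nrm G := by
        show L.nrm _ = _
        congr 1
        funext x
        exact max_eq_left (hG0 x)
      rw [h2, h3]
  obtain ⟨h, hh1, hh2⟩ := exists_extension_of_le_sublinear f N N_hom N_add hf
  refine ⟨fun g => if hg : g ∈ L.carrier then h ⟨g, hg⟩ else 0, ?_, ?_, ?_, ?_⟩
  · intro g hg g' hg'
    simp only [dif_pos hg, dif_pos hg', dif_pos (Submodule.add_mem _ hg hg')]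
    rw [← map_add]
    rfl
  · intro c g hg
    simp only [dif_pos hg, dif_pos (Submodule.smul_mem _ c hg)]
    rw [← smul_eq_mul, ← map_smul]
    rfl
  · intro g hg
    simp only [dif_pos hg]
    exact hh2 ⟨g, hg⟩
  · simp only [dif_pos hG]
    have h1 := hh1 ⟨(⟨G, hG⟩ : E), Submodule.mem_span_singleton_self _⟩
    have h2 := LinearPMap.mkSpanSingleton_apply ℝ ℝ (σ := RingHom.id ℝ) hne (L.nrm G)
    exact h1.trans h2


lemma sqrt_sum_sq_le {k : ℕ} (a : Fin k → ℝ) : Real.sqrt (∑ i, a i ^ 2) ≤ ∑ i, |a i| := by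
  apply Real.sqrt_le_iff.2
  refine ⟨Finset.sum_nonneg fun i _ => abs_nonneg _, ?_⟩
  have := Finset.sum_sq_le_sq_sum_of_nonneg (s := Finset.univ) (f := fun i => |a i|)
    (fun i _ => abs_nonneg _)
  simpa [sq_abs] using this

lemma root_le {s : ℕ} (hs : 1 ≤ s) {a b : ℝ} (ha : 0 ≤ a) (hb : 0 ≤ b) (h : a ≤ b ^ (2 * s)) :
    a ^ ((1 : ℝ) / (2 * (s : ℝ))) ≤ b := by
  have e : (1 : ℝ) / (2 * (s : ℝ)) = (((2 * s : ℕ) : ℝ))⁻¹ := by push_cast; simp
  rw [e]
  calc a ^ (((2 * s : ℕ) : ℝ))⁻¹ ≤ (b ^ (2 * s)) ^ (((2 * s : ℕ) : ℝ))⁻¹ :=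
        Real.rpow_le_rpow ha h (by positivity)
    _ = b := Real.pow_rpow_inv_natCast hb (by omega)

/-- The square function is large as soon as the Rademacher averages are large. -/
lemma sqfun_lower {s : ℕ} (hs : 1 ≤ s) {M : ℝ} (hM : 0 < M) (hconc : L.Concave s M) {k : ℕ}
    (g : Fin k → S → ℝ) (hg : ∀ i, g i ∈ L.carrier) {d : ℝ} (hd : 0 ≤ d)
    (hlow : d ≤ (1 / (2 : ℝ) ^ k) * ∑ ε : Fin k → Bool, L.nrm (fun x => ∑ i, sgn (ε i) * g i x)) :
    d ≤ 4 * s * M * L.nrm (fun x => Real.sqrt (∑ i, (g i x) ^ 2)) := by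
  have hm : ∀ i, Measurable (g i) := fun i => L.measurable_of_mem _ (hg i)
  have hs0 : 2 * s ≠ 0 := by omega
  set G : S → ℝ := fun x => Real.sqrt (∑ i, (g i x) ^ 2) with hGdef
  have hG0 : ∀ x, 0 ≤ G x := fun x => Real.sqrt_nonneg _
  have hu : (fun x => ∑ i, |g i x|) ∈ L.carrier :=
    L.fun_sum_mem Finset.univ (fun i x => |g i x|) (fun i _ => L.abs_mem (hg i))
  have hGm : Measurable G := by
    have : Measurable (fun x => ∑ i, (g i x) ^ 2) :=
      Finset.measurable_fun_sum _ fun i _ => (hm i).pow_const 2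
    exact this.sqrt
  have hG : G ∈ L.carrier := by
    refine L.solid _ hu G hGm (fun x => ?_)
    rw [abs_of_nonneg (hG0 x), abs_of_nonneg (Finset.sum_nonneg fun i _ => abs_nonneg _)]
    exact sqrt_sum_sq_le _
  set F : (Fin k → Bool) → S → ℝ := fun ε x => ∑ i, sgn (ε i) * g i x with hFdef
  have hF : ∀ ε, F ε ∈ L.carrier := fun ε =>
    L.fun_sum_mem Finset.univ (fun i x => sgn (ε i) * g i x)
      (fun i _ => L.smul_fun_mem (hg i) _)
  set A : ℝ := (2 : ℝ) ^ k * (4 * (s : ℝ)) ^ (2 * s) with hAdef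
  have hA0 : 0 ≤ A := by positivity
  set c : ℝ := A ^ ((1 : ℝ) / (2 * (s : ℝ))) with hcdef
  have hc0 : 0 ≤ c := Real.rpow_nonneg hA0 _
  have hcpow : c ^ (2 * s) = A := by
    have e : (1 : ℝ) / (2 * (s : ℝ)) = (((2 * s : ℕ) : ℝ))⁻¹ := by push_cast; simp
    rw [hcdef, e]
    exact Real.rpow_inv_natCast_pow hA0 hs0
  have hGpow : ∀ x, G x ^ (2 * s) = (∑ i, (g i x) ^ 2) ^ s := by
    intro x
    rw [pow_mul, hGdef, Real.sq_sqrt (Finset.sum_nonneg fun i _ => sq_nonneg _)]
  set W : S → ℝ := fun x => (∑ ε, (F ε x) ^ (2 * s)) ^ ((1 : ℝ) / (2 * (s : ℝ))) with hWdef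
  have hW0 : ∀ x, 0 ≤ W x := fun x => Real.rpow_nonneg
    (Finset.sum_nonneg fun ε _ => by rw [pow_mul]; positivity) _
  have hWle : ∀ x, W x ≤ c * G x := by
    intro x
    refine root_le hs (Finset.sum_nonneg fun ε _ => by rw [pow_mul]; positivity)
      (mul_nonneg hc0 (hG0 x)) ?_
    rw [mul_pow, hcpow, hGpow]
    exact khintchine hs (fun i => g i x)
  have hWm : Measurable W := by
    have h1 : ∀ ε, Measurable (F ε) := fun ε => L.measurable_of_mem _ (hF ε)
    have : Measurable (fun x => ∑ ε, (F ε x) ^ (2 * s)) :=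
      Finset.measurable_fun_sum _ fun ε _ => (h1 ε).pow_const _
    exact this.pow_const _
  have hcG : (fun x => c * G x) ∈ L.carrier := L.smul_fun_mem hG c
  have hW : W ∈ L.carrier := by
    refine L.solid _ hcG W hWm (fun x => ?_)
    rw [abs_of_nonneg (hW0 x), abs_of_nonneg (mul_nonneg hc0 (hG0 x))]
    exact hWle x
  have hWn : L.nrm W ≤ c * L.nrm G := by
    have h1 : L.nrm W ≤ L.nrm (fun x => c * G x) := by
      refine L.nrm_mono _ hcG _ hW (fun x => ?_)
      rw [abs_of_nonneg (hW0 x), abs_of_nonneg (mul_nonneg hc0 (hG0 x))]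
      exact hWle x
    have h2 : L.nrm (fun x => c * G x) = c * L.nrm G := by
      have : (fun x => c * G x) = c • G := by funext x; simp
      rw [this, L.nrm_smul c G hG, abs_of_nonneg hc0]
    rwa [h2] at h1
  have hcon := hconc (Fin k → Bool) F hF
  have hWn0 : 0 ≤ L.nrm W := L.nrm_nonneg _ hW
  have hGn0 : 0 ≤ L.nrm G := L.nrm_nonneg _ hG
  have hupper : ∑ ε, L.nrm (F ε) ^ (2 * s) ≤ 2 ^ k * (4 * s * M * L.nrm G) ^ (2 * s) := by
    calc ∑ ε, L.nrm (F ε) ^ (2 * s) ≤ M ^ (2 * s) * L.nrm W ^ (2 * s) := hcon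
      _ ≤ M ^ (2 * s) * (c * L.nrm G) ^ (2 * s) := by
          refine mul_le_mul_of_nonneg_left ?_ (by positivity)
          exact pow_le_pow_left₀ hWn0 hWn _
      _ = 2 ^ k * (4 * s * M * L.nrm G) ^ (2 * s) := by
          rw [mul_pow c, hcpow, hAdef]
          have : (4 * (s : ℝ) * M * L.nrm G) ^ (2 * s) =
              (4 * (s : ℝ)) ^ (2 * s) * M ^ (2 * s) * L.nrm G ^ (2 * s) := by
            rw [mul_pow, mul_pow]
          rw [this]
          ring
  have hcard : ∑ _ε : Fin k → Bool, (1 / (2 : ℝ) ^ k) = 1 := by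
    simp
  have hmean := Real.pow_arith_mean_le_arith_mean_pow (Finset.univ : Finset (Fin k → Bool))
    (fun _ => (1 / (2 : ℝ) ^ k)) (fun ε => L.nrm (F ε)) (fun _ _ => by positivity) hcard
    (fun ε _ => L.nrm_nonneg _ (hF ε)) (2 * s)
  have h2k : (0 : ℝ) < 2 ^ k := by positivity
  have hlow' : d ≤ ∑ ε, (1 / (2 : ℝ) ^ k) * L.nrm (F ε) := by
    rw [← Finset.mul_sum]; exact hlow
  have h3 : d ^ (2 * s) ≤ (1 / (2 : ℝ) ^ k) * ∑ ε, L.nrm (F ε) ^ (2 * s) := by
    rw [Finset.mul_sum]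
    exact (pow_le_pow_left₀ hd hlow' _).trans hmean
  have h4 : d ^ (2 * s) ≤ (4 * s * M * L.nrm G) ^ (2 * s) := by
    refine h3.trans ?_
    rw [div_mul_eq_mul_div, one_mul, div_le_iff₀ h2k, mul_comm _ ((2 : ℝ) ^ k)]
    exact hupper
  exact (pow_le_pow_iff_left₀ hd (by positivity) hs0).1 h4

end Lattice

section Rho

variable {S : Type*} {k : ℕ}

/-- The cut-down sign function attached to the large values of `g i`. -/
noncomputable def rho (τ : ℝ) (g : Fin k → S → ℝ) (i : Fin k) (z : S) : ℝ :=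
  if τ * (∑ j, |g j z|) ≤ |g i z| then g i z / |g i z| else 0

lemma rho_abs_le (τ : ℝ) (g : Fin k → S → ℝ) (i : Fin k) (z : S) : |rho τ g i z| ≤ 1 := by
  unfold rho
  split_ifs with h
  · rw [abs_div, abs_abs]
    exact div_self_le_one _
  · simp

lemma rho_mul (τ : ℝ) (g : Fin k → S → ℝ) (i : Fin k) (z : S) :
    rho τ g i z * g i z = if τ * (∑ j, |g j z|) ≤ |g i z| then |g i z| else 0 := by
  unfold rho
  split_ifs with h
  · by_cases h0 : g i z = 0
    · simp [h0]
    · have h1 : |g i z| ≠ 0 := abs_ne_zero.2 h0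
      field_simp
      rw [sq_abs, sq]
  · simp

lemma rho_mul_nonneg (τ : ℝ) (g : Fin k → S → ℝ) (i : Fin k) (z : S) :
    0 ≤ rho τ g i z * g i z := by
  rw [rho_mul]
  split_ifs
  · exact abs_nonneg _
  · exact le_rfl

lemma rho_measurable [MeasurableSpace S] (τ : ℝ) {g : Fin k → S → ℝ} (hm : ∀ i, Measurable (g i))
    (i : Fin k) : Measurable (rho τ g i) := by
  unfold rho
  have h1 : Measurable (fun z => τ * ∑ j, |g j z|) :=
    (Finset.measurable_fun_sum _ fun j _ => (hm j).abs).const_mul τ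
  have h2 : Measurable (fun z => |g i z|) := (hm i).abs
  exact Measurable.ite (measurableSet_le h1 h2) ((hm i).div h2) measurable_const

lemma sum_abs_rho_le {τ : ℝ} (hτ : 0 < τ) (g : Fin k → S → ℝ) (z : S) :
    ∑ i, |rho τ g i z| ≤ 1 / τ := by
  set u := ∑ j, |g j z| with hu
  have hu0 : 0 ≤ u := Finset.sum_nonneg fun j _ => abs_nonneg _
  have hone : 0 < 1 / τ := by positivity
  rcases hu0.eq_or_lt with h | h
  · have hz : ∀ i, g i z = 0 := by
      intro i
      have := (Finset.sum_eq_zero_iff_of_nonneg (fun j _ => abs_nonneg (g j z))).1 (by rw [← hu, ← h])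
      exact abs_eq_zero.1 (this i (Finset.mem_univ i))
    have : ∀ i, rho τ g i z = 0 := by
      intro i
      unfold rho
      simp [hz i]
    simp [this]
    exact hτ.le
  · have hi : ∀ i, |rho τ g i z| * (τ * u) ≤ |g i z| := by
      intro i
      unfold rho
      split_ifs with h1
      · by_cases h0 : g i z = 0
        · simp [h0]
        · have h2 : |g i z| ≠ 0 := abs_ne_zero.2 h0
          rw [abs_div, abs_abs, div_self h2, one_mul]
          exact h1
      · simp
    have hs : (∑ i, |rho τ g i z|) * (τ * u) ≤ u := by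
      rw [Finset.sum_mul]
      exact Finset.sum_le_sum fun i _ => hi i
    have hp : 0 < τ * u := by positivity
    rw [le_div_iff₀ hτ]
    have : (∑ i, |rho τ g i z|) * τ * u ≤ 1 * u := by
      rw [one_mul, mul_assoc]; exact hs
    exact le_of_mul_le_mul_right this h

lemma sqrt_le_rho_sum {τ κ : ℝ} (hτ : 0 < τ) (hκ : 0 ≤ κ) (hκτ : κ ^ 2 = τ)
    (g : Fin k → S → ℝ) (z : S) :
    Real.sqrt (∑ i, (g i z) ^ 2) ≤ ∑ i, rho τ g i z * g i z + κ * ∑ j, |g j z| := by
  set u := ∑ j, |g j z| with hu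
  have hu0 : 0 ≤ u := Finset.sum_nonneg fun j _ => abs_nonneg _
  have ha0 : 0 ≤ ∑ i, rho τ g i z * g i z := Finset.sum_nonneg fun i _ => rho_mul_nonneg _ _ _ _
  apply Real.sqrt_le_iff.2
  refine ⟨add_nonneg ha0 (mul_nonneg hκ hu0), ?_⟩
  have hi : ∀ i, (g i z) ^ 2 ≤ (rho τ g i z * g i z) ^ 2 + τ * u * |g i z| := by
    intro i
    rw [rho_mul]
    split_ifs with h
    · rw [sq_abs]
      have : 0 ≤ τ * u * |g i z| := by positivity
      linarith
    · push Not at h
      have h1 : (g i z) ^ 2 = |g i z| * |g i z| := by rw [← sq, sq_abs]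
      rw [h1]
      have := mul_le_mul_of_nonneg_right h.le (abs_nonneg (g i z))
      simpa using this
  have h1 : ∑ i, (g i z) ^ 2 ≤ ∑ i, (rho τ g i z * g i z) ^ 2 + τ * u * u := by
    calc ∑ i, (g i z) ^ 2 ≤ ∑ i, ((rho τ g i z * g i z) ^ 2 + τ * u * |g i z|) :=
          Finset.sum_le_sum fun i _ => hi i
      _ = _ := by rw [Finset.sum_add_distrib, ← Finset.mul_sum]
  have h2 : ∑ i, (rho τ g i z * g i z) ^ 2 ≤ (∑ i, rho τ g i z * g i z) ^ 2 :=
    Finset.sum_sq_le_sq_sum_of_nonneg fun i _ => rho_mul_nonneg _ _ _ _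
  have h3 : 0 ≤ (∑ i, rho τ g i z * g i z) * (κ * u) := mul_nonneg ha0 (mul_nonneg hκ hu0)
  have h4 : τ * u * u = (κ * u) ^ 2 := by rw [← hκτ]; ring
  have h5 : (∑ i, rho τ g i z * g i z + κ * u) ^ 2 =
      (∑ i, rho τ g i z * g i z) ^ 2 + 2 * ((∑ i, rho τ g i z * g i z) * (κ * u)) + (κ * u) ^ 2 := by
    ring
  rw [h5]
  linarith

end Rho


section Main

variable {S X : Type*} [MeasurableSpace S] [NormedAddCommGroup X] [NormedSpace ℝ X]

/-- **Main theorem.** Let `L` be a solid function lattice which is `2s`-concave with constant `M`,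
let `T : X → L` be linear with `nrm (T x) ≤ D ‖x‖`, and let the dual of `X` have cotype `r` with
constant `C`. If `f_1, …, f_k` lie in the unit ball of `X` and the Rademacher average of
`nrm (∑ ε_i T f_i)` is at least `δ k`, then `k` is bounded in terms of `δ, s, M, D, C, r`. -/
theorem result (L : SolidLattice S) {s : ℕ} (hs : 1 ≤ s) {M : ℝ} (hM : 0 < M)
    (hconc : L.Concave s M) (T : X →ₗ[ℝ] (S → ℝ)) (hTmem : ∀ x, T x ∈ L.carrier)
    {D : ℝ} (hD : 0 < D) (hT : ∀ x, L.nrm (T x) ≤ D * ‖x‖)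
    {r C : ℝ} (hr : 0 < r) (hC : 0 ≤ C) (hcot : DualCotype X r C)
    {δ : ℝ} (hδ : 0 < δ) {k : ℕ} (f : Fin k → X) (hf : ∀ i, ‖f i‖ ≤ 1)
    (hlow : δ * k ≤ (1 / (2 : ℝ) ^ k) * ∑ ε : Fin k → Bool, L.nrm (T (∑ i, sgn (ε i) • f i))) :
    (k : ℝ) ≤ (4 * D / (δ / (4 * s * M))) * (16 * C * D ^ 3 / (δ / (4 * s * M)) ^ 3) ^ r := by
  classical
  have hspos : (0 : ℝ) < s := by exact_mod_cast hs
  set γ : ℝ := δ / (4 * s * M) with hγdef
  have hγ : 0 < γ := by positivity
  have hbase : 0 ≤ 16 * C * D ^ 3 / γ ^ 3 := by positivity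
  have hB0 : 0 ≤ (16 * C * D ^ 3 / γ ^ 3) ^ r := Real.rpow_nonneg hbase _
  rcases Nat.eq_zero_or_pos k with hk0 | hkpos
  · subst hk0
    simp only [Nat.cast_zero]
    positivity
  have hkR : (0 : ℝ) < k := by exact_mod_cast hkpos
  -- the functions `g i`
  set g : Fin k → S → ℝ := fun i => T (f i) with hgdef
  have hg : ∀ i, g i ∈ L.carrier := fun i => hTmem _
  have hm : ∀ i, Measurable (g i) := fun i => L.measurable_of_mem _ (hg i)
  have hgn : ∀ i, L.nrm (g i) ≤ D := fun i => by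
    have := hT (f i)
    have h2 := mul_le_mul_of_nonneg_left (hf i) hD.le
    rw [mul_one] at h2
    exact this.trans h2
  have hTsum : ∀ (c : Fin k → ℝ), T (∑ i, c i • f i) = fun x => ∑ i, c i * g i x := by
    intro c
    funext x
    simp [hgdef, map_sum, Finset.sum_apply]
  -- the square function is large
  set G : S → ℝ := fun x => Real.sqrt (∑ i, (g i x) ^ 2) with hGdef
  have hG0 : ∀ x, 0 ≤ G x := fun x => Real.sqrt_nonneg _
  have hlow2 : δ * k ≤ 4 * s * M * L.nrm G := by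
    refine sqfun_lower L hs hM hconc g hg (by positivity) ?_
    have : ∀ ε : Fin k → Bool, L.nrm (T (∑ i, sgn (ε i) • f i)) =
        L.nrm (fun x => ∑ i, sgn (ε i) * g i x) := fun ε => by rw [hTsum]
    simpa only [this] using hlow
  have hGlarge : γ * k ≤ L.nrm G := by
    rw [hγdef, div_mul_eq_mul_div, div_le_iff₀ (by positivity)]
    linarith
  have hGpos : 0 < L.nrm G := lt_of_lt_of_le (by positivity) hGlarge
  have hu : (fun x => ∑ i, |g i x|) ∈ L.carrier :=
    L.fun_sum_mem Finset.univ (fun i x => |g i x|) (fun i _ => L.abs_mem (hg i))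
  have hGm : Measurable G := by
    have : Measurable (fun x => ∑ i, (g i x) ^ 2) :=
      Finset.measurable_fun_sum _ fun i _ => (hm i).pow_const 2
    exact this.sqrt
  have hG : G ∈ L.carrier := by
    refine L.solid _ hu G hGm (fun x => ?_)
    rw [abs_of_nonneg (hG0 x), abs_of_nonneg (Finset.sum_nonneg fun i _ => abs_nonneg _)]
    exact sqrt_sum_sq_le _
  -- the functional
  obtain ⟨H, Hadd, Hsmul, Hle, HG⟩ := exists_functional L hG hG0 hGpos
  have Hzero : H 0 = 0 := by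
    have := Hsmul 0 0 (Submodule.zero_mem _)
    simpa using this
  have Hsum : ∀ {ι : Type} (t : Finset ι) (φ : ι → S → ℝ), (∀ i ∈ t, φ i ∈ L.carrier) →
      H (fun z => ∑ i ∈ t, φ i z) = ∑ i ∈ t, H (φ i) := by
    intro ι t φ hφ
    induction t using Finset.induction_on with
    | empty =>
        have h0 : (fun z => ∑ i ∈ (∅ : Finset ι), φ i z) = 0 := by
          funext z
          simp
        rw [h0, Hzero]
        simp
    | insert a t ha ih =>
        have h1 : (fun z => ∑ i ∈ insert a t, φ i z) = φ a + fun z => ∑ i ∈ t, φ i z := by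
          funext z
          simp [Finset.sum_insert ha]
        rw [h1, Hadd _ (hφ a (Finset.mem_insert_self a t)) _
          (L.fun_sum_mem t φ fun i hi => hφ i (Finset.mem_insert_of_mem hi)),
          ih fun i hi => hφ i (Finset.mem_insert_of_mem hi), Finset.sum_insert ha]
  have Hneg : ∀ φ ∈ L.carrier, H ((-1 : ℝ) • φ) = - H φ := fun φ hφ => by
    rw [Hsmul _ _ hφ]; ring
  have Hpos : ∀ φ ∈ L.carrier, (∀ x, 0 ≤ φ x) → 0 ≤ H φ := by
    intro φ hφ h0
    have hm1 : (-1 : ℝ) • φ ∈ L.carrier := Submodule.smul_mem _ _ hφ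
    have h1 := Hle _ hm1
    rw [Hneg φ hφ] at h1
    have h2 : (fun x => max (((-1 : ℝ) • φ) x) 0) = 0 := by
      funext x
      simp [h0 x]
    rw [h2, L.nrm_zero] at h1
    linarith
  have Hmono : ∀ φ ∈ L.carrier, ∀ ψ ∈ L.carrier, (∀ x, φ x ≤ ψ x) → H φ ≤ H ψ := by
    intro φ hφ ψ hψ h0
    have hm1 : (-1 : ℝ) • φ ∈ L.carrier := Submodule.smul_mem _ _ hφ
    have h1 := Hpos (ψ + (-1 : ℝ) • φ) (Submodule.add_mem _ hψ hm1) (fun x => by
      simp only [Pi.add_apply, Pi.smul_apply, smul_eq_mul]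
      linarith [h0 x])
    rw [Hadd _ hψ _ hm1, Hneg φ hφ] at h1
    linarith
  have Habs : ∀ φ ∈ L.carrier, |H φ| ≤ L.nrm φ := by
    intro φ hφ
    have hpl : ∀ ψ ∈ L.carrier, (∀ x, |ψ x| ≤ |φ x|) → H ψ ≤ L.nrm φ := by
      intro ψ hψ hd
      refine (Hle ψ hψ).trans (L.nrm_mono _ hφ _ (L.pos_mem hψ) (fun x => ?_))
      refine le_trans ?_ (hd x)
      rcases le_total (ψ x) 0 with h | h
      · simp [max_eq_right h]
      · simp [max_eq_left h]
    have hm1 : (-1 : ℝ) • φ ∈ L.carrier := Submodule.smul_mem _ _ hφ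
    rw [abs_le]
    constructor
    · have := hpl _ hm1 (fun x => by simp)
      rw [Hneg φ hφ] at this
      linarith
    · exact hpl φ hφ (fun x => le_rfl)
  -- the parameters
  set κ : ℝ := γ / (2 * D) with hκdef
  have hκ : 0 < κ := by positivity
  set τ : ℝ := κ ^ 2 with hτdef
  have hτ : 0 < τ := by positivity
  -- the cut-down functions
  set ρ : Fin k → S → ℝ := rho τ g with hρdef
  have hρm : ∀ i, Measurable (ρ i) := rho_measurable τ hm
  have hρ1 : ∀ i z, |ρ i z| ≤ 1 := rho_abs_le τ g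
  have hρmem : ∀ (φ : S → ℝ), φ ∈ L.carrier → ∀ (ψ : S → ℝ), Measurable ψ → (∀ z, |ψ z| ≤ 1) →
      (fun z => ψ z * φ z) ∈ L.carrier := by
    intro φ hφ ψ hψ h1
    refine L.solid φ hφ _ (hψ.mul (L.measurable_of_mem _ hφ)) (fun z => ?_)
    rw [abs_mul]
    calc |ψ z| * |φ z| ≤ 1 * |φ z| := mul_le_mul_of_nonneg_right (h1 z) (abs_nonneg _)
      _ = |φ z| := one_mul _
  -- the dual elements
  have hdual : ∀ ψ : S → ℝ, Measurable ψ → (∀ z, |ψ z| ≤ 1) →
      ∃ y : StrongDual ℝ X, ∀ x, y x = H (fun z => ψ z * T x z) := by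
    intro ψ hψ h1
    have hmem : ∀ x, (fun z => ψ z * T x z) ∈ L.carrier := fun x => hρmem _ (hTmem x) ψ hψ h1
    let y0 : X →ₗ[ℝ] ℝ :=
      { toFun := fun x => H (fun z => ψ z * T x z)
        map_add' := by
          intro x x'
          have : (fun z => ψ z * T (x + x') z) = (fun z => ψ z * T x z) + (fun z => ψ z * T x' z) := by
            funext z
            simp [mul_add]
          rw [this, Hadd _ (hmem x) _ (hmem x')]
        map_smul' := by
          intro c x
          have : (fun z => ψ z * T (c • x) z) = c • (fun z => ψ z * T x z) := by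
            funext z
            simp only [map_smul, Pi.smul_apply, smul_eq_mul]
            ring
          simp only [RingHom.id_apply, smul_eq_mul]
          rw [this, Hsmul _ _ (hmem x)] }
    have hbd : ∀ x, ‖y0 x‖ ≤ D * ‖x‖ := by
      intro x
      refine le_trans ?_ (hT x)
      show |H _| ≤ _
      refine (Habs _ (hmem x)).trans (L.nrm_mono _ (hTmem x) _ (hmem x) (fun z => ?_))
      rw [abs_mul]
      calc |ψ z| * |T x z| ≤ 1 * |T x z| := mul_le_mul_of_nonneg_right (h1 z) (abs_nonneg _)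
        _ = |T x z| := one_mul _
    exact ⟨y0.mkContinuous D hbd, fun x => rfl⟩
  choose y hy using fun i => hdual (ρ i) (hρm i) (hρ1 i)
  -- the values `α i`
  set a : Fin k → S → ℝ := fun i z => ρ i z * g i z with hadef
  have ha : ∀ i, a i ∈ L.carrier := fun i => hρmem _ (hg i) (ρ i) (hρm i) (hρ1 i)
  have ha0 : ∀ i z, 0 ≤ a i z := fun i z => rho_mul_nonneg τ g i z
  set α : Fin k → ℝ := fun i => H (a i) with hαdef
  have hα0 : ∀ i, 0 ≤ α i := fun i => Hpos _ (ha i) (ha0 i)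
  have hαD : ∀ i, α i ≤ D := by
    intro i
    have h1 := (le_abs_self _).trans (Habs _ (ha i))
    refine h1.trans (le_trans (L.nrm_mono _ (hg i) _ (ha i) (fun z => ?_)) (hgn i))
    show |ρ i z * g i z| ≤ _
    rw [abs_mul]
    calc |ρ i z| * |g i z| ≤ 1 * |g i z| := mul_le_mul_of_nonneg_right (hρ1 i z) (abs_nonneg _)
      _ = |g i z| := one_mul _
  have hyα : ∀ i, α i ≤ ‖y i‖ := by
    intro i
    have h1 : y i (f i) = α i := hy i (f i)
    have h2 := (y i).le_opNorm (f i)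
    rw [h1, Real.norm_eq_abs] at h2
    have h3 : ‖y i‖ * ‖f i‖ ≤ ‖y i‖ * 1 := mul_le_mul_of_nonneg_left (hf i) (norm_nonneg _)
    rw [mul_one] at h3
    exact (le_abs_self _).trans (h2.trans h3)
  -- the sum of the values is large
  have hsumα : γ * k / 2 ≤ ∑ i, α i := by
    set R : S → ℝ := fun z => ∑ i, a i z + κ * ∑ j, |g j z| with hRdef
    have hsumaM : (fun z => ∑ i, a i z) ∈ L.carrier := L.fun_sum_mem Finset.univ a fun i _ => ha i
    have hkuM : (fun z => κ * ∑ j, |g j z|) ∈ L.carrier := L.smul_fun_mem hu κ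
    have hRM : R ∈ L.carrier := Submodule.add_mem _ hsumaM hkuM
    have hle : ∀ z, G z ≤ R z := fun z => sqrt_le_rho_sum hτ hκ.le rfl g z
    have h1 := Hmono _ hG _ hRM hle
    have h2 : H R = ∑ i, α i + κ * H (fun z => ∑ j, |g j z|) := by
      have : R = (fun z => ∑ i, a i z) + κ • (fun z => ∑ j, |g j z|) := by
        funext z
        simp [hRdef]
      rw [this, Hadd _ hsumaM _ (Submodule.smul_mem _ _ hu), Hsmul _ _ hu,
        Hsum Finset.univ a fun i _ => ha i]
    have h3 : H (fun z => ∑ j, |g j z|) ≤ k * D := by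
      rw [Hsum Finset.univ (fun j z => |g j z|) fun j _ => L.abs_mem (hg j)]
      calc ∑ j, H (fun z => |g j z|) ≤ ∑ _j : Fin k, D := by
            refine Finset.sum_le_sum fun j _ => ?_
            have h4 := (le_abs_self _).trans (Habs _ (L.abs_mem (hg j)))
            refine h4.trans (le_trans (L.nrm_mono _ (hg j) _ (L.abs_mem (hg j)) ?_) (hgn j))
            intro z
            simp
        _ = k * D := by simp
    have h5 : κ * (k * D) = γ * k / 2 := by
      rw [hκdef]; field_simp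
    have h6 := mul_le_mul_of_nonneg_left h3 hκ.le
    rw [HG] at h1
    rw [h2] at h1
    linarith
  -- the number of large values
  set I : Finset (Fin k) := Finset.univ.filter (fun i => γ / 4 ≤ α i) with hIdef
  have hcount : γ * k / 4 ≤ I.card * D := by
    have h1 : ∀ i, α i ≤ (if i ∈ I then D else 0) + γ / 4 := by
      intro i
      split_ifs with hi
      · have := hαD i; linarith
      · have : ¬ γ / 4 ≤ α i := by simpa [hIdef] using hi
        push Not at this
        linarith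
    have h2 : ∑ i, α i ≤ I.card * D + k * (γ / 4) := by
      calc ∑ i, α i ≤ ∑ i, ((if i ∈ I then D else 0) + γ / 4) :=
            Finset.sum_le_sum fun i _ => h1 i
        _ = _ := by
            rw [Finset.sum_add_distrib, Finset.sum_ite_mem, Finset.univ_inter]
            simp
    linarith
  -- the norms of the sign sums are bounded
  have hsign : ∀ c : Fin k → ℝ, (∀ i, |c i| ≤ 1) → ‖∑ i, c i • y i‖ ≤ D / τ := by
    intro c hc
    refine ContinuousLinearMap.opNorm_le_bound _ (by positivity) (fun x => ?_)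
    set φ : Fin k → S → ℝ := fun i z => c i * (ρ i z * T x z) with hφdef
    have hρT : ∀ i, (fun z => ρ i z * T x z) ∈ L.carrier :=
      fun i => hρmem _ (hTmem x) (ρ i) (hρm i) (hρ1 i)
    have hφ : ∀ i, φ i ∈ L.carrier := fun i => L.smul_fun_mem (hρT i) (c i)
    have hval : (∑ i, c i • y i) x = H (fun z => ∑ i, φ i z) := by
      rw [Hsum Finset.univ φ fun i _ => hφ i]
      simp only [_root_.sum_apply, smul_apply, smul_eq_mul, hy]
      refine Finset.sum_congr rfl fun i _ => ?_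
      have : φ i = c i • (fun z => ρ i z * T x z) := by
        funext z
        simp [hφdef]
      rw [this, Hsmul _ _ (hρT i)]
    have hmemφ : (fun z => ∑ i, φ i z) ∈ L.carrier := L.fun_sum_mem Finset.univ φ fun i _ => hφ i
    have hTx : (fun z => (1 / τ) * T x z) ∈ L.carrier := L.smul_fun_mem (hTmem x) _
    have hdom : ∀ z, |∑ i, φ i z| ≤ |(1 / τ) * T x z| := by
      intro z
      have hτ' : 0 < 1 / τ := by positivity
      rw [abs_mul, abs_of_pos hτ']
      calc |∑ i, φ i z| ≤ ∑ i, |φ i z| := Finset.abs_sum_le_sum_abs _ _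
        _ ≤ ∑ i, |ρ i z| * |T x z| := by
            refine Finset.sum_le_sum fun i _ => ?_
            rw [hφdef]
            simp only
            rw [abs_mul, abs_mul]
            calc |c i| * (|ρ i z| * |T x z|) ≤ 1 * (|ρ i z| * |T x z|) :=
                  mul_le_mul_of_nonneg_right (hc i) (by positivity)
              _ = _ := one_mul _
        _ = (∑ i, |ρ i z|) * |T x z| := by rw [Finset.sum_mul]
        _ ≤ (1 / τ) * |T x z| :=
            mul_le_mul_of_nonneg_right (sum_abs_rho_le hτ g z) (abs_nonneg _)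
    rw [hval, Real.norm_eq_abs]
    have h1 := (Habs _ hmemφ).trans (L.nrm_mono _ hTx _ hmemφ hdom)
    have h2 : L.nrm (fun z => (1 / τ) * T x z) = (1 / τ) * L.nrm (T x) := by
      have : (fun z => (1 / τ) * T x z) = (1 / τ) • (T x) := by
        funext z
        simp
      rw [this, L.nrm_smul _ _ (hTmem x), abs_of_pos (by positivity)]
    rw [h2] at h1
    have h3 := mul_le_mul_of_nonneg_left (hT x) (show 0 ≤ 1 / τ by positivity)
    calc _ ≤ _ := h1
      _ ≤ _ := h3
      _ = D / τ * ‖x‖ := by ring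
  -- the cotype inequality
  have hcot2 : (∑ i, ‖y i‖ ^ r) ^ (1 / r) ≤ C * (D / τ) := by
    refine (hcot k y).trans (mul_le_mul_of_nonneg_left ?_ hC)
    have hB : 0 ≤ D / τ := by positivity
    apply Real.sqrt_le_iff.2
    refine ⟨hB, ?_⟩
    have h2k : (0 : ℝ) < 2 ^ k := by positivity
    have h1 : ∑ ε : Fin k → Bool, ‖∑ i, sgn (ε i) • y i‖ ^ 2 ≤ 2 ^ k * (D / τ) ^ 2 := by
      calc ∑ ε : Fin k → Bool, ‖∑ i, sgn (ε i) • y i‖ ^ 2
          ≤ ∑ _ε : Fin k → Bool, (D / τ) ^ 2 := by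
            refine Finset.sum_le_sum fun ε _ => ?_
            exact pow_le_pow_left₀ (norm_nonneg _)
              (hsign _ fun i => le_of_eq (sgn_abs _)) 2
        _ = 2 ^ k * (D / τ) ^ 2 := by simp
    rw [div_mul_eq_mul_div, one_mul, div_le_iff₀ h2k, mul_comm _ ((2 : ℝ) ^ k)]
    exact h1
  have hP0 : 0 ≤ ∑ i, ‖y i‖ ^ r := Finset.sum_nonneg fun i _ => by positivity
  have hP : ∑ i, ‖y i‖ ^ r ≤ (C * (D / τ)) ^ r := by
    have h1 := Real.rpow_le_rpow (Real.rpow_nonneg hP0 _) hcot2 hr.le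
    rwa [← Real.rpow_mul hP0, one_div, inv_mul_cancel₀ hr.ne', Real.rpow_one] at h1
  have hI : (I.card : ℝ) * (γ / 4) ^ r ≤ ∑ i, ‖y i‖ ^ r := by
    calc (I.card : ℝ) * (γ / 4) ^ r = ∑ _i ∈ I, (γ / 4) ^ r := by simp
      _ ≤ ∑ i ∈ I, ‖y i‖ ^ r := by
          refine Finset.sum_le_sum fun i hi => ?_
          have h1 : γ / 4 ≤ α i := (Finset.mem_filter.1 hi).2
          exact Real.rpow_le_rpow (by positivity) (h1.trans (hyα i)) hr.le
      _ ≤ ∑ i, ‖y i‖ ^ r :=
          Finset.sum_le_sum_of_subset_of_nonneg (Finset.subset_univ _) fun i _ _ => by positivity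
  have hγr : 0 < (γ / 4) ^ r := Real.rpow_pos_of_pos (by positivity) _
  have hcard : (I.card : ℝ) ≤ (16 * C * D ^ 3 / γ ^ 3) ^ r := by
    have h1 := hI.trans hP
    rw [← le_div_iff₀ hγr, ← Real.div_rpow (by positivity) (by positivity)] at h1
    have h2 : C * (D / τ) / (γ / 4) = 16 * C * D ^ 3 / γ ^ 3 := by
      rw [hτdef, hκdef]
      field_simp
      ring
    rwa [h2] at h1
  -- conclusion
  have hfinal : (k : ℝ) ≤ (4 * D / γ) * I.card := by
    rw [div_mul_eq_mul_div, le_div_iff₀ hγ]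
    linarith
  exact hfinal.trans (mul_le_mul_of_nonneg_left hcard (by positivity))

end Main

end Vale.Agent.Results.P111.LatticeSubspace
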